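import Vale.Agent.Lib.P230.Skew.Shears

/-!
# P230 skew route: the choice of the shears with the weak second moment hypothesis
`2 E(2μ) + B ≤ 2 E²` (the copy of `Skew.Shears` keeps the bound `W_i ≤ 2 E^(2 i)`).
-/

set_option autoImplicit false

open Finset

namespace Vale.Agent.Lib.P230.Skew31

open Vale.Agent.Lib.P230.Skew

variable {t : ℕ}

/-- One step of the averaging argument. -/
theorem shear_step2 {Q : ℕ} (hQ : 0 < Q) (μ : ℝ) (h2 : 2 * Emean Q (2 * μ) + Bmean Q μ ≤ 2 * Emean Q μ ^ 2)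
    (i : ℕ) (hit : i < t) (b : Fin t → Fin t → ℤ)
    (hW : ∑ y ∈ box Q i, Mass Q b μ i y ^ 2 ≤ 2 * (Q : ℝ) ^ i * Emean Q μ ^ (2 * i)) :
    ∃ β ∈ box (t := t) Q i,
      ∑ y ∈ box Q (i + 1), Mass Q (Function.update b ⟨i, hit⟩ β) μ (i + 1) y ^ 2 ≤
        2 * (Q : ℝ) ^ (i + 1) * Emean Q μ ^ (2 * (i + 1)) := by
  have hQ' : (0 : ℝ) < Q := by exact_mod_cast hQ
  have hil : i ≤ t := by omega
  set M := Mass Q b μ i with hM
  have hper : Per Q b i M := Mass_per hQ b μ i hil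
  set E := Emean Q μ with hE
  set W := ∑ y ∈ box (t := t) Q i, M y ^ 2 with hWdef
  set S := ∑ y ∈ box (t := t) Q i, M y with hS
  have hSval : S = ((Q : ℝ) * E) ^ i := Mass_mean hQ b μ i hil
  -- the coefficients
  let p : ℝ → ℝ := fun x => Real.exp (-(μ * x ^ 2))
  let q : ℝ → ℝ := fun x => Real.exp (-(μ * ((Q : ℝ) - x) ^ 2))
  have hE2 : ∑ a ∈ Finset.Ico (0 : ℤ) Q, (p (a : ℝ) ^ 2 + q (a : ℝ) ^ 2) =
      (Q : ℝ) * Emean Q (2 * μ) := by
    rw [sum_Ico_int_eq_range Q (fun x => p x ^ 2 + q x ^ 2)]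
    unfold Emean
    rw [← mul_assoc, mul_one_div_cancel hQ'.ne', one_mul]
    refine Finset.sum_congr rfl fun x _ => ?_
    simp only [p, q]
    rw [← Real.exp_nat_mul, ← Real.exp_nat_mul]
    congr 2 <;> · push_cast; ring
  have hB2 : ∑ a ∈ Finset.Ico (0 : ℤ) Q, (2 * (p (a : ℝ) * q (a : ℝ))) =
      (Q : ℝ) * Bmean Q μ := by
    rw [sum_Ico_int_eq_range Q (fun x => 2 * (p x * q x))]
    unfold Bmean
    rw [← mul_assoc, mul_one_div_cancel hQ'.ne', one_mul]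
  -- the cross term
  let C : (Fin t → ℤ) → ℝ := fun β => ∑ y ∈ box (t := t) Q i, M y * M (y - β)
  have hCsum : ∑ β ∈ box (t := t) Q i, C β = S ^ 2 := by
    simp only [C]
    rw [Finset.sum_comm]
    have : ∀ y ∈ box (t := t) Q i, ∑ β ∈ box (t := t) Q i, M y * M (y - β) = M y * S := by
      intro y _
      rw [← Finset.mul_sum, hS, sum_box_sub hQ hil b M hper y]
    rw [Finset.sum_congr rfl this, ← Finset.sum_mul, sq]
  -- the value for a fixed shear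
  have hval : ∀ β : Fin t → ℤ,
      ∑ y ∈ box Q (i + 1), Mass Q (Function.update b ⟨i, hit⟩ β) μ (i + 1) y ^ 2 =
        (Q : ℝ) * Emean Q (2 * μ) * W + (Q : ℝ) * Bmean Q μ * C β := by
    intro β
    rw [sum_box_succ hit]
    have hW' : ∑ y ∈ box (t := t) Q i, M (y - β) ^ 2 = W := by
      have := sum_box_add hQ hil b (fun y => M y ^ 2) hper.sq (-β)
      simpa [sub_eq_add_neg] using this
    have hinner : ∀ a ∈ Finset.Ico (0 : ℤ) Q,
        ∑ y' ∈ box (t := t) Q i,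
          Mass Q (Function.update b ⟨i, hit⟩ β) μ (i + 1) (y' + Pi.single ⟨i, hit⟩ a) ^ 2 =
        (p (a : ℝ) ^ 2 + q (a : ℝ) ^ 2) * W + (2 * (p (a : ℝ) * q (a : ℝ))) * C β := by
      intro a ha
      rw [Finset.mem_Ico] at ha
      have h1 : ∀ y' ∈ box (t := t) Q i,
          Mass Q (Function.update b ⟨i, hit⟩ β) μ (i + 1) (y' + Pi.single ⟨i, hit⟩ a) ^ 2 =
            p (a : ℝ) ^ 2 * M y' ^ 2 + q (a : ℝ) ^ 2 * M (y' - β) ^ 2 +
              (2 * (p (a : ℝ) * q (a : ℝ))) * (M y' * M (y' - β)) := by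
        intro y' hy'
        rw [mass_section hQ hit b μ β y' hy' a ha.1 ha.2]
        simp only [p, q, hM]
        ring
      rw [Finset.sum_congr rfl h1, Finset.sum_add_distrib, Finset.sum_add_distrib,
        ← Finset.mul_sum, ← Finset.mul_sum, ← Finset.mul_sum, hW']
      simp only [C]
      ring
    rw [Finset.sum_congr rfl hinner, Finset.sum_add_distrib, ← Finset.sum_mul, ← Finset.sum_mul,
      hE2, hB2]
  -- the average
  have hE0 : 0 ≤ Emean Q (2 * μ) := by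
    unfold Emean
    have : 0 ≤ ∑ x ∈ Finset.range Q,
        (Real.exp (-(2 * μ * (x : ℝ) ^ 2)) + Real.exp (-(2 * μ * ((Q : ℝ) - x) ^ 2))) :=
      Finset.sum_nonneg fun x _ => by positivity
    positivity
  have hPow : 0 ≤ E ^ (2 * i) := by
    rw [pow_mul]
    positivity
  have hQi : (0 : ℝ) < (Q : ℝ) ^ i := by positivity
  have hkey : (Q : ℝ) ^ i * ((Q : ℝ) * Emean Q (2 * μ) * W) + (Q : ℝ) * Bmean Q μ * S ^ 2 ≤
      (Q : ℝ) ^ i * (2 * (Q : ℝ) ^ (i + 1) * E ^ (2 * (i + 1))) := by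
    have h3 : Emean Q (2 * μ) * W ≤ Emean Q (2 * μ) * (2 * (Q : ℝ) ^ i * E ^ (2 * i)) :=
      mul_le_mul_of_nonneg_left hW hE0
    have hS2 : S ^ 2 = (Q : ℝ) ^ i * (Q : ℝ) ^ i * E ^ (2 * i) := by
      have : E ^ (2 * i) = (E ^ i) ^ 2 := by rw [mul_comm, pow_mul]
      rw [hSval, this]
      ring
    have hQQ : 0 ≤ (Q : ℝ) ^ i * (Q : ℝ) := by positivity
    have h7 := mul_le_mul_of_nonneg_left h3 hQQ
    have hP : 0 ≤ (Q : ℝ) ^ i * (Q : ℝ) ^ i * (Q : ℝ) * E ^ (2 * i) := by positivity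
    have h8 := mul_le_mul_of_nonneg_left h2 hP
    have h5 : (Q : ℝ) ^ i * ((Q : ℝ) * Emean Q (2 * μ) * W) =
        (Q : ℝ) ^ i * (Q : ℝ) * (Emean Q (2 * μ) * W) := by ring
    have h6 : (Q : ℝ) * Bmean Q μ * S ^ 2 =
        (Q : ℝ) ^ i * (Q : ℝ) ^ i * (Q : ℝ) * E ^ (2 * i) * Bmean Q μ := by
      rw [hS2]; ring
    have h9 : (Q : ℝ) ^ i * (2 * (Q : ℝ) ^ (i + 1) * E ^ (2 * (i + 1))) =
        (Q : ℝ) ^ i * (Q : ℝ) ^ i * (Q : ℝ) * E ^ (2 * i) * (2 * E ^ 2) := by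
      rw [show 2 * (i + 1) = 2 * i + 2 by ring, pow_add E, pow_succ (Q : ℝ) i]
      ring
    have h10 : (Q : ℝ) ^ i * (Q : ℝ) * (Emean Q (2 * μ) * (2 * (Q : ℝ) ^ i * E ^ (2 * i))) =
        (Q : ℝ) ^ i * (Q : ℝ) ^ i * (Q : ℝ) * E ^ (2 * i) * (2 * Emean Q (2 * μ)) := by ring
    rw [h5, h6, h9]
    rw [h10] at h7
    have h11 : (Q : ℝ) ^ i * (Q : ℝ) ^ i * (Q : ℝ) * E ^ (2 * i) * (2 * Emean Q (2 * μ) + Bmean Q μ) =
        (Q : ℝ) ^ i * (Q : ℝ) ^ i * (Q : ℝ) * E ^ (2 * i) * (2 * Emean Q (2 * μ)) +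
          (Q : ℝ) ^ i * (Q : ℝ) ^ i * (Q : ℝ) * E ^ (2 * i) * Bmean Q μ := by ring
    rw [h11] at h8
    linarith
  have hsum : ∑ β ∈ box (t := t) Q i, ((Q : ℝ) * Emean Q (2 * μ) * W + (Q : ℝ) * Bmean Q μ * C β) ≤
      ∑ _β ∈ box (t := t) Q i, (2 * (Q : ℝ) ^ (i + 1) * E ^ (2 * (i + 1))) := by
    rw [Finset.sum_add_distrib, Finset.sum_const, ← Finset.mul_sum, hCsum, Finset.sum_const,
      nsmul_eq_mul, nsmul_eq_mul]
    have hcard : ((box (t := t) Q i).card : ℝ) = (Q : ℝ) ^ i := by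
      have := sum_box_one (t := t) (Q := Q) hil
      simpa using this
    rw [hcard]
    exact hkey
  obtain ⟨β, hβ, hle⟩ := Finset.exists_le_of_sum_le (box_nonempty hQ) hsum
  exact ⟨β, hβ, by rw [hval]; exact hle⟩

/-- Choice of the shears by averaging, with the weak hypothesis. -/
theorem exists_shears2 {Q : ℕ} (hQ : 0 < Q) (μ : ℝ) (h2 : 2 * Emean Q (2 * μ) + Bmean Q μ ≤ 2 * Emean Q μ ^ 2)
    (i₀ : ℕ) (hi : i₀ ≤ t) :
    ∃ b : Fin t → Fin t → ℤ, (∀ i j, 0 ≤ b i j ∧ b i j < Q) ∧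
      ∑ y ∈ box Q i₀, Mass Q b μ i₀ y ^ 2 ≤ 2 * (Q : ℝ) ^ i₀ * Emean Q μ ^ (2 * i₀) := by
  induction i₀ with
  | zero =>
    refine ⟨0, fun i j => ⟨le_refl _, by simpa using hQ⟩, ?_⟩
    rw [box_zero]
    simp [Mass, Zset, hgt]
  | succ i ih =>
    obtain ⟨b, hb, hW⟩ := ih (by omega)
    have hit : i < t := hi
    obtain ⟨β, hβ, hle⟩ := shear_step2 hQ μ h2 i hit b hW
    refine ⟨Function.update b ⟨i, hit⟩ β, ?_, hle⟩
    intro i' j
    rw [mem_box] at hβ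
    by_cases h : i' = ⟨i, hit⟩
    · subst h
      simp only [Function.update_self]
      by_cases hj : j.val < i
      · exact (hβ j).1 hj
      · rw [(hβ j).2 hj]
        exact ⟨le_refl _, by exact_mod_cast hQ⟩
    · rw [Function.update_of_ne h]
      exact hb i' j

end Vale.Agent.Lib.P230.Skew31
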